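import Mathlib

/-!
P045 (Ryser's conjecture): definitions.  A hypergraph is a finite set `E` of edges, each edge a
finite set of vertices.
-/

namespace Vale.Agent.Lib.P045

variable {V : Type*} [DecidableEq V]

/-- `C` is a vertex cover of `E`: it meets every edge. -/
def IsCover (E : Finset (Finset V)) (C : Finset V) : Prop :=
  ∀ e ∈ E, (e ∩ C).Nonempty

/-- `M` is a matching of `E`: a set of pairwise disjoint edges of `E`. -/
def IsMatching (E M : Finset (Finset V)) : Prop :=
  M ⊆ E ∧ ∀ e ∈ M, ∀ f ∈ M, e ≠ f → Disjoint e f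

/-- every vertex lies in at most `D` edges of `E` -/
def MaxDegLE (E : Finset (Finset V)) (D : ℕ) : Prop :=
  ∀ v : V, (E.filter (fun e => v ∈ e)).card ≤ D

/-- `E` is `r`-partite `r`-uniform: the vertices are split into `r` parts (by `c`) and every edge
contains exactly one vertex of each part. -/
def IsPartite (E : Finset (Finset V)) (r : ℕ) : Prop :=
  ∃ c : V → Fin r, ∀ e ∈ E, ∀ i : Fin r, (e.filter (fun v => c v = i)).card = 1

end Vale.Agent.Lib.P045
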