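import Vale.Agent.Lib.P045.Defs

namespace Vale.Agent.Lib.P045

variable {V : Type*} [DecidableEq V]

/-- R0: an `r`-partite `r`-uniform hypergraph is `r`-uniform. -/
theorem card_of_isPartite (E : Finset (Finset V)) (r : ℕ) (h : IsPartite E r) :
    ∀ e ∈ E, e.card = r := by
  obtain ⟨c, hc⟩ := h
  intro e he
  rw [Finset.card_eq_sum_card_fiberwise (f := c) (t := Finset.univ)
    (fun x _ => Finset.mem_coe.mpr (Finset.mem_univ _))]
  rw [Finset.sum_congr rfl (fun i _ => hc e he i)]
  simp

/-- R1 (greedy matching): take a matching `M` of maximum size inside `E'`; every edge of `E'`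
meets an edge of `M`, and an edge of `M` has `r` vertices, each in at most `j` edges, one of which
is the edge itself. -/
theorem exists_matching_ge (E : Finset (Finset V)) (r j : ℕ) (hj : 1 ≤ j)
    (hr : ∀ e ∈ E, e.card = r) (hd : MaxDegLE E j) :
    ∃ M, IsMatching E M ∧ E.card ≤ (r * (j - 1) + 1) * M.card := by
  classical
  induction E using Finset.strongInduction with
  | H E ih =>
    rcases E.eq_empty_or_nonempty with rfl | ⟨f, hf⟩
    · exact ⟨∅, ⟨Finset.Subset.refl _, by simp⟩, by simp⟩
    · set N := E.filter (fun e => e = f ∨ ¬ Disjoint e f) with hN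
      set E' := E \ N with hE'
      have hfN : f ∈ N := by simp [hN, hf]
      have hNE : N ⊆ E := Finset.filter_subset _ _
      have hsub : E' ⊂ E := by
        refine Finset.ssubset_iff_subset_ne.mpr ⟨Finset.sdiff_subset, fun h => ?_⟩
        have h1 : f ∈ E' := h ▸ hf
        exact (Finset.mem_sdiff.mp h1).2 hfN
      have hd' : MaxDegLE E' j := fun v =>
        (Finset.card_le_card (Finset.filter_subset_filter _ Finset.sdiff_subset)).trans (hd v)
      obtain ⟨M', ⟨hM'sub, hM'dis⟩, hcard⟩ :=
        ih E' hsub (fun e he => hr e (Finset.sdiff_subset he)) hd'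
      have hNcard : N.card ≤ r * (j - 1) + 1 := by
        have hsubN : N ⊆ insert f (f.biUnion (fun v => (E.filter (fun e => v ∈ e)).erase f)) := by
          intro e he
          have he' := Finset.mem_filter.mp he
          by_cases hef : e = f
          · subst hef; exact Finset.mem_insert_self _ _
          · rcases he'.2 with h | hnd
            · exact absurd h hef
            · rw [Finset.not_disjoint_iff] at hnd
              obtain ⟨v, hve, hvf⟩ := hnd
              apply Finset.mem_insert_of_mem
              rw [Finset.mem_biUnion]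
              exact ⟨v, hvf, Finset.mem_erase.mpr ⟨hef, Finset.mem_filter.mpr ⟨he'.1, hve⟩⟩⟩
        calc N.card ≤ (insert f (f.biUnion
                (fun v => (E.filter (fun e => v ∈ e)).erase f))).card := Finset.card_le_card hsubN
          _ ≤ (f.biUnion (fun v => (E.filter (fun e => v ∈ e)).erase f)).card + 1 :=
              Finset.card_insert_le _ _
          _ ≤ (∑ v ∈ f, ((E.filter (fun e => v ∈ e)).erase f).card) + 1 :=
              Nat.add_le_add_right Finset.card_biUnion_le 1
          _ ≤ (∑ _v ∈ f, (j - 1)) + 1 := by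
              apply Nat.add_le_add_right
              apply Finset.sum_le_sum
              intro v hv
              rw [Finset.card_erase_of_mem (Finset.mem_filter.mpr ⟨hf, hv⟩)]
              exact Nat.sub_le_sub_right (hd v) 1
          _ = r * (j - 1) + 1 := by rw [Finset.sum_const, hr f hf, smul_eq_mul]
      have hprop : ∀ e ∈ M', e ≠ f ∧ Disjoint e f := by
        intro e he
        have h1 := Finset.mem_sdiff.mp (hM'sub he)
        have h2 : ¬ (e = f ∨ ¬ Disjoint e f) := fun h => h1.2 (Finset.mem_filter.mpr ⟨h1.1, h⟩)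
        push Not at h2
        exact h2
      have hfM : f ∉ M' := fun h => (hprop f h).1 rfl
      refine ⟨insert f M', ⟨?_, ?_⟩, ?_⟩
      · exact Finset.insert_subset hf (hM'sub.trans Finset.sdiff_subset)
      · intro e he g hg hne
        rcases Finset.mem_insert.mp he with rfl | he'
        · rcases Finset.mem_insert.mp hg with rfl | hg'
          · exact absurd rfl hne
          · exact (hprop g hg').2.symm
        · rcases Finset.mem_insert.mp hg with rfl | hg'
          · exact (hprop e he').2
          · exact hM'dis e he' g hg' hne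
      · rw [Finset.card_insert_of_notMem hfM]
        have h1 : E'.card + N.card = E.card := Finset.card_sdiff_add_card_eq_card hNE
        calc E.card = E'.card + N.card := h1.symm
          _ ≤ (r * (j - 1) + 1) * M'.card + (r * (j - 1) + 1) := Nat.add_le_add hcard hNcard
          _ = (r * (j - 1) + 1) * (M'.card + 1) := by ring

theorem exists_round_aux (E : Finset (Finset V)) (j : ℕ) (hd : MaxDegLE E (j + 1)) :
    ∃ (X : Finset V) (E' : Finset (Finset V)), E' ⊆ E ∧ MaxDegLE E' j ∧
      (∀ e ∈ E, e ∉ E' → (e ∩ X).Nonempty) ∧ E.card = E'.card + (j + 1) * X.card ∧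
      ∀ x ∈ X, ∃ e ∈ E, x ∈ e := by
  classical
  induction E using Finset.strongInduction with
  | H E ih =>
    by_cases hE : MaxDegLE E j
    · exact ⟨∅, E, Finset.Subset.refl _, hE, fun e he h => absurd he h, by simp, by simp⟩
    · unfold MaxDegLE at hE
      push Not at hE
      obtain ⟨v, hv⟩ := hE
      set S := E.filter (fun e => v ∈ e) with hS
      have hScard : S.card = j + 1 := le_antisymm (hd v) hv
      have hSE : S ⊆ E := Finset.filter_subset _ _
      set E1 := E \ S with hE1
      have hSne : S.Nonempty := Finset.card_pos.mp (by omega)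
      obtain ⟨f, hfS⟩ := hSne
      have hsub : E1 ⊂ E := by
        refine Finset.ssubset_iff_subset_ne.mpr ⟨Finset.sdiff_subset, fun h => ?_⟩
        have h1 : f ∈ E1 := h ▸ (hSE hfS)
        exact (Finset.mem_sdiff.mp h1).2 hfS
      have hd1 : MaxDegLE E1 (j + 1) := fun w =>
        (Finset.card_le_card (Finset.filter_subset_filter _ Finset.sdiff_subset)).trans (hd w)
      obtain ⟨X1, E', hE'sub, hE'deg, hcov, hcard, hX1⟩ := ih E1 hsub hd1
      have hvX1 : v ∉ X1 := by
        intro h
        obtain ⟨e, he, hve⟩ := hX1 v h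
        have h1 := Finset.mem_sdiff.mp he
        exact h1.2 (Finset.mem_filter.mpr ⟨h1.1, hve⟩)
      refine ⟨insert v X1, E', hE'sub.trans Finset.sdiff_subset, hE'deg, ?_, ?_, ?_⟩
      · intro e he heE'
        by_cases heS : e ∈ S
        · exact ⟨v, Finset.mem_inter.mpr ⟨(Finset.mem_filter.mp heS).2, Finset.mem_insert_self _ _⟩⟩
        · obtain ⟨x, hx⟩ := hcov e (Finset.mem_sdiff.mpr ⟨he, heS⟩) heE'
          have hx' := Finset.mem_inter.mp hx
          exact ⟨x, Finset.mem_inter.mpr ⟨hx'.1, Finset.mem_insert_of_mem hx'.2⟩⟩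
      · rw [Finset.card_insert_of_notMem hvX1]
        have h1 : E1.card + S.card = E.card := Finset.card_sdiff_add_card_eq_card hSE
        rw [← h1, hcard, hScard]
        ring
      · intro x hx
        rcases Finset.mem_insert.mp hx with rfl | hx'
        · exact ⟨f, hSE hfS, (Finset.mem_filter.mp hfS).2⟩
        · obtain ⟨e, he, hxe⟩ := hX1 x hx'
          exact ⟨e, Finset.sdiff_subset he, hxe⟩

/-- R2 (one greedy round): induction on `E.card`; if some vertex lies in `j+1` edges, remove them. -/
theorem exists_round (E : Finset (Finset V)) (j : ℕ) (hd : MaxDegLE E (j + 1)) :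
    ∃ (X : Finset V) (E' : Finset (Finset V)), E' ⊆ E ∧ MaxDegLE E' j ∧
      (∀ e ∈ E, e ∉ E' → (e ∩ X).Nonempty) ∧ E.card = E'.card + (j + 1) * X.card := by
  obtain ⟨X, E', h1, h2, h3, h4, -⟩ := exists_round_aux E j hd
  exact ⟨X, E', h1, h2, h3, h4⟩

/-- R3: a hypergraph of nonempty edges with maximum degree at most one is covered by one vertex
per edge. -/
theorem exists_cover_deg_one (E : Finset (Finset V)) (hne : ∀ e ∈ E, e.Nonempty) :
    ∃ C : Finset V, IsCover E C ∧ C.card ≤ E.card := by
  classical
  refine ⟨E.attach.image (fun e => (hne e.1 e.2).choose), ?_, ?_⟩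
  · intro e he
    refine ⟨(hne e he).choose, Finset.mem_inter.mpr ⟨(hne e he).choose_spec, ?_⟩⟩
    exact Finset.mem_image.mpr ⟨⟨e, he⟩, Finset.mem_attach _ _, rfl⟩
  · exact le_trans Finset.card_image_le (by simp)

end Vale.Agent.Lib.P045
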