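import Vale.Agent.Lib.P045.Greedy

namespace Vale.Agent.Lib.P045

variable {V : Type*} [DecidableEq V]

/-- the correction term `a_j = ∑_{1 ≤ i < j} (r (i-1) + 1) / (i (i+1))` -/
def corr (r : ℕ) (j : ℕ) : ℚ :=
  ∑ i ∈ Finset.Ico 1 j, ((r : ℚ) * ((i : ℚ) - 1) + 1) / ((i : ℚ) * ((i : ℚ) + 1))

theorem corr_succ (r j : ℕ) (hj : 1 ≤ j) :
    corr r (j + 1) = corr r j + ((r : ℚ) * ((j : ℚ) - 1) + 1) / ((j : ℚ) * ((j : ℚ) + 1)) := by
  unfold corr
  rw [Finset.sum_Ico_succ_top hj]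

/-- R5: closed form. -/
theorem closed_form (r : ℕ) : ∀ j : ℕ, 1 ≤ j →
    ((r : ℚ) * ((j : ℚ) - 1) + 1) / j + corr r j = 1 + r * (harmonic j - 1) := by
  intro j hj
  induction j, hj using Nat.le_induction with
  | base => simp [corr, harmonic]
  | succ j hj ih =>
    rw [corr_succ r j hj, harmonic_succ]
    have hj0 : (j : ℚ) ≠ 0 := by
      have : (0 : ℚ) < j := by exact_mod_cast hj
      exact this.ne'
    have hj1 : (j : ℚ) + 1 ≠ 0 := by
      have : (0 : ℚ) < (j : ℚ) + 1 := by positivity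
      exact this.ne'
    have e : corr r j = 1 + r * (harmonic j - 1) - ((r : ℚ) * ((j : ℚ) - 1) + 1) / j := by
      linarith
    rw [e]
    push_cast
    field_simp
    ring

theorem IsMatching.mono {E E' M : Finset (Finset V)} (h : IsMatching E' M) (hE : E' ⊆ E) :
    IsMatching E M := ⟨h.1.trans hE, h.2⟩

/-- R4: induction over the maximum degree. -/
theorem cover_aux (r N : ℕ) (hr1 : 1 ≤ r) : ∀ j : ℕ, 1 ≤ j → ∀ E : Finset (Finset V),
    (∀ e ∈ E, e.card = r) → MaxDegLE E j → (∀ M, IsMatching E M → M.card ≤ N) →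
    ∃ C : Finset V, IsCover E C ∧ (C.card : ℚ) ≤ (E.card : ℚ) / j + N * corr r j := by
  intro j hj
  induction j, hj using Nat.le_induction with
  | base =>
    intro E hr _ _
    obtain ⟨C, hC, hc⟩ := exists_cover_deg_one E (fun e he => by
      rw [← Finset.card_pos, hr e he]; omega)
    refine ⟨C, hC, ?_⟩
    have : (C.card : ℚ) ≤ E.card := by exact_mod_cast hc
    simpa [corr] using this
  | succ j hj ih =>
    intro E hr hd hN
    obtain ⟨X, E', hsub, hd', hX, hcard⟩ := exists_round E j hd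
    obtain ⟨C', hC', hc'⟩ := ih E' (fun e he => hr e (hsub he)) hd'
      (fun M hM => hN M (hM.mono hsub))
    obtain ⟨M', hM', hm'⟩ := exists_matching_ge E' r j hj (fun e he => hr e (hsub he)) hd'
    have hM'N : M'.card ≤ N := hN M' (hM'.mono hsub)
    refine ⟨C' ∪ X, ?_, ?_⟩
    · intro e he
      by_cases h : e ∈ E'
      · obtain ⟨v, hv⟩ := hC' e h
        rw [Finset.mem_inter] at hv
        exact ⟨v, Finset.mem_inter.2 ⟨hv.1, Finset.mem_union_left _ hv.2⟩⟩
      · obtain ⟨v, hv⟩ := hX e he h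
        rw [Finset.mem_inter] at hv
        exact ⟨v, Finset.mem_inter.2 ⟨hv.1, Finset.mem_union_right _ hv.2⟩⟩
    · have h1 : ((C' ∪ X).card : ℚ) ≤ C'.card + X.card := by
        exact_mod_cast Finset.card_union_le _ _
      have hjq : (0 : ℚ) < j := by exact_mod_cast hj
      have h2 : (E.card : ℚ) = E'.card + ((j : ℚ) + 1) * X.card := by exact_mod_cast hcard
      have h3 : (E'.card : ℚ) ≤ ((r : ℚ) * ((j : ℚ) - 1) + 1) * N := by
        have h4 : E'.card ≤ (r * (j - 1) + 1) * N :=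
          le_trans hm' (Nat.mul_le_mul_left _ hM'N)
        have h5 : ((E'.card : ℕ) : ℚ) ≤ (((r * (j - 1) + 1) * N : ℕ) : ℚ) := by exact_mod_cast h4
        rw [Nat.cast_mul, Nat.cast_add, Nat.cast_mul, Nat.cast_sub hj] at h5
        simpa using h5
      rw [corr_succ r j hj]
      have hX' : (X.card : ℚ) = ((E.card : ℚ) - E'.card) / ((j : ℚ) + 1) := by
        rw [h2]; field_simp; ring
      have key : (E'.card : ℚ) / ((j : ℚ) * ((j : ℚ) + 1)) ≤
          N * (((r : ℚ) * ((j : ℚ) - 1) + 1) / ((j : ℚ) * ((j : ℚ) + 1))) := by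
        rw [mul_div_assoc', div_le_div_iff_of_pos_right (by positivity)]
        linarith
      have e1 : ((E.card : ℚ) - E'.card) / ((j : ℚ) + 1) + (E'.card : ℚ) / j =
          (E.card : ℚ) / ((j : ℚ) + 1) + (E'.card : ℚ) / ((j : ℚ) * ((j : ℚ) + 1)) := by
        field_simp
        ring
      push_cast
      linarith

/-- every hypergraph has a matching of maximum size -/
theorem exists_max_matching (E : Finset (Finset V)) :
    ∃ M₀, IsMatching E M₀ ∧ ∀ M, IsMatching E M → M.card ≤ M₀.card := by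
  classical
  have hne : (E.powerset.filter (fun M => IsMatching E M)).Nonempty :=
    ⟨∅, Finset.mem_filter.2 ⟨Finset.mem_powerset.2 (Finset.empty_subset _),
      Finset.empty_subset _, fun e he => absurd he (Finset.notMem_empty e)⟩⟩
  obtain ⟨M₀, hM₀, hmax⟩ := Finset.exists_max_image _ Finset.card hne
  refine ⟨M₀, (Finset.mem_filter.1 hM₀).2, fun M hM => hmax M ?_⟩
  exact Finset.mem_filter.2 ⟨Finset.mem_powerset.2 hM.1, hM⟩

/-- Main theorem: `τ ≤ (1 + r (H_D - 1)) ν`. -/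
theorem cover_le (E : Finset (Finset V)) (r D : ℕ) (hr1 : 1 ≤ r) (hD : 1 ≤ D)
    (hr : ∀ e ∈ E, e.card = r) (hd : MaxDegLE E D) :
    ∃ (C : Finset V) (M : Finset (Finset V)), IsCover E C ∧ IsMatching E M ∧
      (C.card : ℚ) ≤ (1 + r * (harmonic D - 1)) * M.card := by
  obtain ⟨M₀, hM₀, hmax⟩ := exists_max_matching E
  obtain ⟨C, hC, hc⟩ := cover_aux r M₀.card hr1 D hD E hr hd hmax
  obtain ⟨M', hM', hm'⟩ := exists_matching_ge E r D hD hr hd
  refine ⟨C, M₀, hC, hM₀, ?_⟩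
  have hDq : (0 : ℚ) < D := by exact_mod_cast hD
  have h3 : (E.card : ℚ) ≤ ((r : ℚ) * ((D : ℚ) - 1) + 1) * M₀.card := by
    have h4 : E.card ≤ (r * (D - 1) + 1) * M₀.card :=
      le_trans hm' (Nat.mul_le_mul_left _ (hmax M' hM'))
    have h5 : ((E.card : ℕ) : ℚ) ≤ (((r * (D - 1) + 1) * M₀.card : ℕ) : ℚ) := by exact_mod_cast h4
    rw [Nat.cast_mul, Nat.cast_add, Nat.cast_mul, Nat.cast_sub hD] at h5
    simpa using h5
  rw [← closed_form r D hD, add_mul]
  have h6 : (E.card : ℚ) / D ≤ ((r : ℚ) * ((D : ℚ) - 1) + 1) / D * M₀.card := by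
    rw [div_mul_eq_mul_div, div_le_div_iff_of_pos_right hDq]
    exact h3
  linarith

end Vale.Agent.Lib.P045
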